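import Vale.Agent.Lib.P329.Criterion

namespace Vale.Agent.Results.P329.BasePointCriterion

open Vale.Agent.Lib.P329

/-- Base point criterion. Let `M` be a finite deterministic automaton with a state `p` and a rank
function `ρ` on the states such that, off `p`, (1) no transition increases the rank and (2) on
each rank class every letter acts (where it stays in the class) as a partial identity or as a
partial constant map. Then the language accepted by `M` has generalized star height at most 1. -/
theorem result {α σ : Type} [Finite α] [Finite σ] (M : DFA α σ) (p : σ) (ρ : σ → ℕ)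
    (h1 : ∀ q a, q ≠ p → M.step q a ≠ p → ρ (M.step q a) ≤ ρ q)
    (h2 : ∀ a q₁ q₂, q₁ ≠ p → q₂ ≠ p → ρ q₁ = ρ q₂ → M.step q₁ a ≠ p → M.step q₂ a ≠ p →
      ρ (M.step q₁ a) = ρ q₁ → ρ (M.step q₂ a) = ρ q₂ →
      (M.step q₁ a = q₁ ∧ M.step q₂ a = q₂) ∨ M.step q₁ a = M.step q₂ a) :
    ∃ E : GRE α, E.sh ≤ 1 ∧ E.lang = M.accepts := by
  obtain ⟨E, hE, hL⟩ := hasHeight_run_mem (δ := M.step) (p := p) (ρ := ρ) h1 h2 M.start
    (fun q => q ∈ M.accept)
  exact ⟨E, hE, hL.trans rfl⟩

end Vale.Agent.Results.P329.BasePointCriterion
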