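import Vale.Agent.Results.P329.A_Pseudovariety
import Vale.Agent.Results.P329.BasePointCriterion

namespace Vale.Agent.Results.P329.A_Combined

open Vale.Agent.Lib.P329

/-- Two classes of regular languages of generalized star height at most 1:
(1) the languages recognized by a divisor `G` of a finite direct product of finite basic groups, a
group being basic if it has an abelian normal subgroup whose quotient is commutative of prime
exponent or if it is nilpotent of class at most three;
(2) the languages accepted by a finite deterministic automaton that satisfies the base point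
criterion (off one state `p`, a rank function never increases and on each rank class every letter
acts as a partial identity or as a partial constant map). -/
theorem result :
    (∀ {G : Type} [Group G] {ι : Type} [Finite ι] (H : ι → Type) [∀ i, Group (H i)]
      [∀ i, Finite (H i)] (_ : ∀ i, Vale.Agent.Results.P329.A_Pseudovariety.IsBasic (H i))
      (S : Subgroup (∀ i, H i)) (π : S →* G) (_ : Function.Surjective π)
      {A : Type} [Finite A] (η : FreeMonoid A →* G) (L : Language A)
      (_ : ∀ u v : List A,
        η (FreeMonoid.ofList u) = η (FreeMonoid.ofList v) → (u ∈ L ↔ v ∈ L)),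
      ∃ E : GRE A, E.sh ≤ 1 ∧ E.lang = L) ∧
    (∀ {α σ : Type} [Finite α] [Finite σ] (M : DFA α σ) (p : σ) (ρ : σ → ℕ)
      (_ : ∀ q a, q ≠ p → M.step q a ≠ p → ρ (M.step q a) ≤ ρ q)
      (_ : ∀ a q₁ q₂, q₁ ≠ p → q₂ ≠ p → ρ q₁ = ρ q₂ → M.step q₁ a ≠ p → M.step q₂ a ≠ p →
        ρ (M.step q₁ a) = ρ q₁ → ρ (M.step q₂ a) = ρ q₂ →
        (M.step q₁ a = q₁ ∧ M.step q₂ a = q₂) ∨ M.step q₁ a = M.step q₂ a),
      ∃ E : GRE α, E.sh ≤ 1 ∧ E.lang = M.accepts) :=
  ⟨fun H _ _ hH S π hπ _ _ η L hL =>
      Vale.Agent.Results.P329.A_Pseudovariety.result H hH S π hπ η L hL,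
    fun M p ρ h1 h2 => Vale.Agent.Results.P329.BasePointCriterion.result M p ρ h1 h2⟩

end Vale.Agent.Results.P329.A_Combined
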