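import Vale.Agent.Lib.P329.MetaMain
import Vale.Agent.Lib.P329.Nil.Main

namespace Vale.Agent.Results.P329.A_Pseudovariety

open Vale.Agent.Lib.P329

/-- The two basic classes of groups: `H` has an abelian normal subgroup `N` such that `H / N` is
commutative of prime exponent `p` (all `p`-th powers and all commutators lie in `N`), or `H` is
nilpotent of class at most three. -/
def IsBasic (H : Type) [Group H] : Prop :=
  (∃ (N : Subgroup H) (p : ℕ), N.Normal ∧ p.Prime ∧ (∀ a ∈ N, ∀ b ∈ N, a * b = b * a) ∧
      (∀ g : H, g ^ p ∈ N) ∧ ∀ g h : H, g * h * g⁻¹ * h⁻¹ ∈ N) ∨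
  (∃ _ : Group.IsNilpotent H, Group.nilpotencyClass H ≤ 3)

/-- Let `G` be a divisor of a finite direct product of finite basic groups: `G` is the image, under
a morphism `π`, of a subgroup `S` of the product of the groups `H i`. Then every language recognized
by `G` has generalized star height at most 1: if `η` is a monoid morphism from the free monoid over
a finite alphabet `A` to `G` and membership in `L` depends only on the image of the word under `η`,
then `L` is denoted by a generalized regular expression over `A` of star height at most 1. -/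
theorem result {G : Type} [Group G] {ι : Type} [Finite ι] (H : ι → Type) [∀ i, Group (H i)]
    [∀ i, Finite (H i)] (hH : ∀ i, IsBasic (H i)) (S : Subgroup (∀ i, H i)) (π : S →* G)
    (hπ : Function.Surjective π)
    {A : Type} [Finite A] (η : FreeMonoid A →* G) (L : Language A)
    (hL : ∀ u v : List A, η (FreeMonoid.ofList u) = η (FreeMonoid.ofList v) → (u ∈ L ↔ v ∈ L)) :
    ∃ E : GRE A, E.sh ≤ 1 ∧ E.lang = L := by
  classical
  choose s hs using fun a : A => hπ (η (FreeMonoid.of a))
  have key : ∀ w : List A, η (FreeMonoid.ofList w) = π ((w.map s).prod) := by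
    intro w
    induction w with
    | nil => exact (map_one η).trans (map_one π).symm
    | cons x w ih =>
      rw [List.map_cons, List.prod_cons, map_mul, hs, ← ih, ← map_mul]
      rfl
  have coord : ∀ (w : List A) (i : ι),
      ((w.map s).prod : S).1 i = (w.map fun a => (s a).1 i).prod := by
    intro w i
    induction w with
    | nil => rfl
    | cons x w ih =>
      rw [List.map_cons, List.prod_cons, List.map_cons, List.prod_cons, ← ih]
      rfl
  have hbasic : ∀ (i : ι) (h : H i),
      HasHeight 1 (langOf fun w : List A => (w.map fun a => (s a).1 i).prod = h) := by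
    intro i h
    rcases hH i with ⟨N, p, hNn, hp, hN, hpow, hcomm⟩ | ⟨hnil, hcl⟩
    · have := hNn
      have : Fact p.Prime := ⟨hp⟩
      exact hasHeight_meta N hN p hpow hcomm (fun a => (s a).1 i) (fun g => g = h)
    · exact hasHeight_nil3 (Subgroup.lowerCentralSeries_eq_bot_iff_nilpotencyClass_le.mpr hcl)
        (fun a => (s a).1 i) (fun g => g = h)
  have main : HasHeight 1 L := by
    refine (HasHeight.iUnion_of (ι := ∀ i, H i)
      (fun h => ∃ u : List A, u ∈ L ∧ ((u.map s).prod : S).1 = h)
      (fun h => langOf fun w : List A =>
        ∀ i, w ∈ langOf fun w : List A => (w.map fun a => (s a).1 i).prod = h i)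
      (fun h _ => HasHeight.iInter _ fun i => hbasic i (h i))).of_iff fun w => ?_
    constructor
    · intro hw
      exact ⟨((w.map s).prod : S).1, ⟨w, hw, rfl⟩, fun i => (coord w i).symm⟩
    · rintro ⟨h, ⟨u, hu, huh⟩, hw⟩
      have h1 : ((w.map s).prod : S).1 = ((u.map s).prod : S).1 := by
        funext i
        rw [coord w i, huh]
        exact hw i
      have h2 : (w.map s).prod = (u.map s).prod := Subtype.ext h1
      exact (hL u w (by rw [key, key, h2])).mp hu
  exact main

end Vale.Agent.Results.P329.A_Pseudovariety
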