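import Vale.Agent.Lib.P329.MetaMain

namespace Vale.Agent.Results.P329.AbelianByPrimeExponent

open Vale.Agent.Lib.P329

/-- Let `G` be a finite group with an abelian normal subgroup `N` such that the quotient `G / N` is
commutative of prime exponent `p` (all `p`-th powers and all commutators of `G` lie in `N`). Then
every language recognized by `G` has generalized star height at most 1: if `η` is a monoid morphism
from the free monoid over a finite alphabet `A` to `G` and membership in `L` depends only on the
image of the word under `η`, then `L` is denoted by a generalized regular expression over `A` of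
star height at most 1. -/
theorem result {G : Type} [Group G] [Finite G] (N : Subgroup G) [N.Normal]
    (hN : ∀ a ∈ N, ∀ b ∈ N, a * b = b * a) (p : ℕ) (hp : p.Prime)
    (hpow : ∀ g : G, g ^ p ∈ N) (hcomm : ∀ g h : G, g * h * g⁻¹ * h⁻¹ ∈ N)
    {A : Type} [Finite A] (η : FreeMonoid A →* G) (L : Language A)
    (hL : ∀ u v : List A, η (FreeMonoid.ofList u) = η (FreeMonoid.ofList v) → (u ∈ L ↔ v ∈ L)) :
    ∃ E : GRE A, E.sh ≤ 1 ∧ E.lang = L := by
  have : Fact p.Prime := ⟨hp⟩
  have key : ∀ w : List A, η (FreeMonoid.ofList w) = (w.map fun x => η (FreeMonoid.of x)).prod := by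
    intro w
    induction w with
    | nil => exact map_one η
    | cons x w ih =>
      rw [List.map_cons, List.prod_cons, ← ih, ← map_mul]
      rfl
  obtain ⟨E, hE, hlang⟩ := hasHeight_meta N hN p hpow hcomm (fun x => η (FreeMonoid.of x))
    (fun g => ∃ u : List A, u ∈ L ∧ η (FreeMonoid.ofList u) = g)
  refine ⟨E, hE, ?_⟩
  rw [hlang]
  apply Language.ext
  intro w
  rw [mem_langOf, ← key]
  constructor
  · rintro ⟨u, hu, huw⟩
    exact (hL u w huw).mp hu
  · intro hw
    exact ⟨w, hw, rfl⟩

end Vale.Agent.Results.P329.AbelianByPrimeExponent
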