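import Vale.Agent.Lib.P329.AltFourMain

namespace Vale.Agent.Results.P329.AlternatingFour

open Vale.Agent.Lib.P329

/-- Every language recognized by the alternating group `A₄` has generalized star height at most 1:
if `η` is a monoid morphism from the free monoid over a finite alphabet `A` to `A₄` and membership
in `L` depends only on the image of the word under `η`, then `L` is denoted by a generalized regular
expression over `A` of star height at most 1. -/
theorem result {A : Type} [Finite A] (η : FreeMonoid A →* alternatingGroup (Fin 4))
    (L : Language A)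
    (hL : ∀ u v : List A, η (FreeMonoid.ofList u) = η (FreeMonoid.ofList v) → (u ∈ L ↔ v ∈ L)) :
    ∃ E : GRE A, E.sh ≤ 1 ∧ E.lang = L := by
  have key : ∀ w : List A, η (FreeMonoid.ofList w) = (w.map fun x => η (FreeMonoid.of x)).prod := by
    intro w
    induction w with
    | nil => exact map_one η
    | cons x w ih =>
      rw [List.map_cons, List.prod_cons, ← ih, ← map_mul]
      rfl
  obtain ⟨E, hE, hlang⟩ := hasHeight_A4 (fun x => η (FreeMonoid.of x))
    (fun g => ∃ u : List A, u ∈ L ∧ η (FreeMonoid.ofList u) = g)
  refine ⟨E, hE, ?_⟩
  rw [hlang]
  apply Language.ext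
  intro w
  rw [mem_langOf, ← key]
  constructor
  · rintro ⟨u, hu, huw⟩
    exact (hL u w huw).mp hu
  · intro hw
    exact ⟨w, hw, rfl⟩

end Vale.Agent.Results.P329.AlternatingFour
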