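import Vale.Agent.Lib.P329.Nil.Main

namespace Vale.Agent.Results.P329.NilpotentClassThree

open Vale.Agent.Lib.P329

/-- Every language recognized by a finite nilpotent group of class at most three has generalized
star height at most 1: if `η` is a monoid morphism from the free monoid over a finite alphabet `A`
to such a group `G` and membership in `L` depends only on the image of the word under `η`, then `L`
is denoted by a generalized regular expression over `A` of star height at most 1. -/
theorem result {G : Type} [Group G] [Finite G] [Group.IsNilpotent G]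
    (hG : Group.nilpotencyClass G ≤ 3)
    {A : Type} [Finite A] (η : FreeMonoid A →* G) (L : Language A)
    (hL : ∀ u v : List A, η (FreeMonoid.ofList u) = η (FreeMonoid.ofList v) → (u ∈ L ↔ v ∈ L)) :
    ∃ E : GRE A, E.sh ≤ 1 ∧ E.lang = L := by
  classical
  have key : ∀ w : List A, η (FreeMonoid.ofList w) = (w.map fun x => η (FreeMonoid.of x)).prod := by
    intro w
    induction w with
    | nil => exact map_one η
    | cons x w ih =>
      rw [List.map_cons, List.prod_cons, ← ih, ← map_mul]
      rfl
  obtain ⟨E, hE, hlang⟩ := hasHeight_nil3
    (Subgroup.lowerCentralSeries_eq_bot_iff_nilpotencyClass_le.mpr hG)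
    (fun x => η (FreeMonoid.of x))
    (fun g => ∃ u : List A, u ∈ L ∧ η (FreeMonoid.ofList u) = g)
  refine ⟨E, hE, ?_⟩
  rw [hlang]
  apply Language.ext
  intro w
  rw [mem_langOf, ← key]
  constructor
  · rintro ⟨u, hu, huw⟩
    exact (hL u w huw).mp hu
  · intro hw
    exact ⟨w, hw, rfl⟩

end Vale.Agent.Results.P329.NilpotentClassThree
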